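import Vale.Agent.P264.Reduce
import Vale.Agent.P264.Init
import Vale.Agent.P264.InitPD
import Vale.Agent.P264.OneD

open scoped ContDiff
open Set Vale.Agent.P264

theorem Vale.Agent.Results.P264.Blowup.result :
    ∃ ψ₀ : (Fin (10 + 1) → ℂ) → ℝ, ContDiffOn ℝ ∞ ψ₀ {0}ᶜ ∧ Invariant ψ₀ ∧ IsKahler ψ₀ ∧
      ∀ c : ℝ, ¬ ∃ φ : ℝ → (Fin (10 + 1) → ℂ) → ℝ,
        ContDiffOn ℝ ∞ (fun p : ℝ × (Fin (10 + 1) → ℂ) => φ p.1 p.2) (Ici 0 ×ˢ {0}ᶜ) ∧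
        (∀ t, 0 ≤ t → Invariant (φ t)) ∧ (∀ Z, Z ≠ 0 → φ 0 Z = 0) ∧
        (∀ t, 0 ≤ t → IsKahler (ψ₀ + φ t)) ∧
        ∀ t, 0 < t → ∀ j w,
          HasDerivAt (fun s => φ s (chart j w)) (scal (ψ₀ + φ t) j w - c) t := by
  by_contra hcon
  refine oneD fun g0 hg hpos => ?_
  obtain ⟨f, hf⟩ := exists_pot hg hpos
  by_contra hno
  refine hcon ⟨fun Z => f (XX Z), hf.smooth_XX, pot_invariant f, hf.kahler, fun c hc => hno ?_⟩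
  obtain ⟨φ, hs, hi, h0, hk, he⟩ := hc
  exact (flow_of hf.smooth_XX (pot_invariant f) hs hi hk he).sol hf fun Z hZ => by
    simp [h0 Z hZ]
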